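import Crest.Agent.Helper96.S0151.Defs

/-!
# S0151 leaf C1 (Rot): the coordinatewise rotation preserves the product measure (helper89)

Same names and signatures as `Crest.Agent.Helper96.S0151.Blueprint` (leaf C1).
-/

set_option autoImplicit false

namespace Crest.Agent.Helper89.S0151

open MeasureTheory Set
open Crest.AnalysisR.ProductShift

/-- `Int.fract (t + s)` only depends on `Int.fract s`. -/
theorem fract_add_fract_right (t s : ℝ) : Int.fract (t + Int.fract s) = Int.fract (t + s) := by
  have h : t + s = t + Int.fract s + (⌊s⌋ : ℝ) := by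
    have := Int.floor_add_fract s
    linarith
  rw [h, Int.fract_add_intCast]

/-- Rotation by `s` on `[0,1)` with `0 ≤ s < 1` preserves Lebesgue measure restricted to `[0,1)`. -/
theorem map_fract_add_aux (s : ℝ) (hs0 : 0 ≤ s) (hs1 : s < 1) :
    Measure.map (fun t : ℝ => Int.fract (t + s)) unitLebesgue = unitLebesgue := by
  have hmeas : Measurable (fun t : ℝ => Int.fract (t + s)) := by fun_prop
  ext A hA
  rw [Measure.map_apply hmeas hA]
  unfold unitLebesgue
  rw [Measure.restrict_apply (hmeas hA), Measure.restrict_apply hA]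
  -- split `[0,1)` into `[0,1-s)` and `[1-s,1)`
  have hsplit : Ico (0 : ℝ) 1 = Ico 0 (1 - s) ∪ Ico (1 - s) 1 := by
    rw [Ico_union_Ico_eq_Ico] <;> linarith
  have hsplit' : Ico (0 : ℝ) 1 = Ico 0 s ∪ Ico s 1 := by
    rw [Ico_union_Ico_eq_Ico] <;> linarith
  have h1 : (fun t : ℝ => Int.fract (t + s)) ⁻¹' A ∩ Ico 0 (1 - s)
      = (fun t : ℝ => t + s) ⁻¹' (A ∩ Ico s 1) := by
    ext t
    simp only [mem_inter_iff, mem_preimage, mem_Ico]
    constructor
    · rintro ⟨hA', h0, h1⟩
      have : Int.fract (t + s) = t + s := by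
        rw [Int.fract_eq_self]; constructor <;> linarith
      rw [this] at hA'
      exact ⟨hA', by linarith, by linarith⟩
    · rintro ⟨hA', h0, h1⟩
      have : Int.fract (t + s) = t + s := by
        rw [Int.fract_eq_self]; constructor <;> linarith
      rw [this]
      exact ⟨hA', by linarith, by linarith⟩
  have h2 : (fun t : ℝ => Int.fract (t + s)) ⁻¹' A ∩ Ico (1 - s) 1
      = (fun t : ℝ => t + (s - 1)) ⁻¹' (A ∩ Ico 0 s) := by
    ext t
    simp only [mem_inter_iff, mem_preimage, mem_Ico]
    have key : ∀ t : ℝ, 1 - s ≤ t → t < 1 → Int.fract (t + s) = t + (s - 1) := by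
      intro t h0 h1
      have : t + s = (t + (s - 1)) + ((1 : ℤ) : ℝ) := by push_cast; ring
      rw [this, Int.fract_add_intCast, Int.fract_eq_self]
      constructor <;> linarith
    constructor
    · rintro ⟨hA', h0, h1⟩
      rw [key t h0 h1] at hA'
      exact ⟨hA', by linarith, by linarith⟩
    · rintro ⟨hA', h0, h1⟩
      have h0' : 1 - s ≤ t := by linarith
      have h1' : t < 1 := by linarith
      rw [key t h0' h1']
      exact ⟨hA', h0', h1'⟩
  have hd1 : Disjoint ((fun t : ℝ => Int.fract (t + s)) ⁻¹' A ∩ Ico 0 (1 - s))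
      ((fun t : ℝ => Int.fract (t + s)) ⁻¹' A ∩ Ico (1 - s) 1) := by
    refine Disjoint.mono inter_subset_right inter_subset_right ?_
    rw [Ico_disjoint_Ico]
    simp
  have hd2 : Disjoint (A ∩ Ico 0 s) (A ∩ Ico s 1) := by
    refine Disjoint.mono inter_subset_right inter_subset_right ?_
    rw [Ico_disjoint_Ico]
    simp
  have hm2 : MeasurableSet ((fun t : ℝ => Int.fract (t + s)) ⁻¹' A ∩ Ico (1 - s) 1) :=
    (hmeas hA).inter measurableSet_Ico
  calc volume ((fun t : ℝ => Int.fract (t + s)) ⁻¹' A ∩ Ico 0 1)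
      = volume (((fun t : ℝ => Int.fract (t + s)) ⁻¹' A ∩ Ico 0 (1 - s)) ∪
          ((fun t : ℝ => Int.fract (t + s)) ⁻¹' A ∩ Ico (1 - s) 1)) := by
        rw [hsplit, inter_union_distrib_left]
    _ = volume ((fun t : ℝ => Int.fract (t + s)) ⁻¹' A ∩ Ico 0 (1 - s)) +
          volume ((fun t : ℝ => Int.fract (t + s)) ⁻¹' A ∩ Ico (1 - s) 1) :=
        measure_union hd1 hm2
    _ = volume (A ∩ Ico s 1) + volume (A ∩ Ico 0 s) := by
        rw [h1, h2, measure_preimage_add_right, measure_preimage_add_right]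
    _ = volume (A ∩ Ico 0 s) + volume (A ∩ Ico s 1) := add_comm _ _
    _ = volume ((A ∩ Ico 0 s) ∪ (A ∩ Ico s 1)) :=
        (measure_union hd2 (hA.inter measurableSet_Ico)).symm
    _ = volume (A ∩ Ico 0 1) := by
        rw [← inter_union_distrib_left, ← hsplit']

/-- Rotation `t ↦ fract (t + s)` preserves Lebesgue measure restricted to `[0,1)`. -/
theorem measurePreserving_fract_add (s : ℝ) :
    MeasurePreserving (fun t : ℝ => Int.fract (t + s)) unitLebesgue unitLebesgue := by
  refine ⟨by fun_prop, ?_⟩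
  have h := map_fract_add_aux (Int.fract s) (Int.fract_nonneg s) (Int.fract_lt_one s)
  have hfun : (fun t : ℝ => Int.fract (t + s)) = (fun t : ℝ => Int.fract (t + Int.fract s)) := by
    funext t
    exact (fract_add_fract_right t s).symm
  rw [hfun]
  exact h

/-- Two rotation steps compose. -/
theorem orbitPoint_orbitPoint (θ : ℕ → ℝ) (a b : ℤ) (x : ℕ → ℝ) :
    orbitPoint θ a (orbitPoint θ b x) = orbitPoint θ (a + b) x := by
  funext i
  simp only [orbitPoint]
  have h1 : Int.fract (x i + (b : ℝ) * θ i) + (a : ℝ) * θ i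
      = (a : ℝ) * θ i + Int.fract (x i + (b : ℝ) * θ i) := add_comm _ _
  rw [h1, fract_add_fract_right]
  congr 1
  push_cast
  ring

theorem measurable_orbitPoint (θ : ℕ → ℝ) (k : ℤ) : Measurable (orbitPoint θ k) := by
  unfold orbitPoint
  refine measurable_pi_lambda _ fun i => ?_
  exact measurable_fract.comp ((measurable_pi_apply i).add_const _)

theorem measurePreserving_orbitPoint (θ : ℕ → ℝ) (k : ℤ) :
    MeasurePreserving (orbitPoint θ k) cubeMeasure cubeMeasure := by
  refine ⟨measurable_orbitPoint θ k, ?_⟩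
  unfold cubeMeasure
  have h := Measure.infinitePi_map_pi (μ := fun _ : ℕ => unitLebesgue)
    (f := fun (i : ℕ) (t : ℝ) => Int.fract (t + (k : ℝ) * θ i))
    (fun i => (measurePreserving_fract_add _).measurable)
  have hfun : orbitPoint θ k = fun (x : ℕ → ℝ) i => Int.fract (x i + (k : ℝ) * θ i) := rfl
  rw [hfun, h]
  congr 1
  funext i
  exact (measurePreserving_fract_add _).map_eq

theorem measurable_orbitPoint_prod (θ : ℕ → ℝ) :
    Measurable (fun p : (ℕ → ℝ) × ℤ => orbitPoint θ p.2 p.1) := by
  refine measurable_from_prod_countable_left (fun k => ?_)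
  exact measurable_orbitPoint θ k

end Crest.Agent.Helper89.S0151
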