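import Crest.Agent.Helper96.S0151.Defs

/-!
# S0151 leaf C2 (Shift): the index shift preserves `pairMeasure` (helper89)

Same name and signature as `Crest.Agent.Helper96.S0151.Blueprint` (leaf C2).
-/

set_option autoImplicit false

namespace Crest.Agent.Helper89.S0151

open MeasureTheory Set
open Crest.AnalysisR.ProductShift
open Crest.Agent.Helper96.S0151

/-- Translation of the integers preserves counting measure. -/
theorem measurePreserving_sub_count (d : ℤ) :
    MeasurePreserving (fun k : ℤ => k - d) Measure.count Measure.count := by
  have hm : Measurable (fun k : ℤ => k - d) := measurable_of_countable _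
  refine ⟨hm, ?_⟩
  ext s hs
  have hpre : (fun k : ℤ => k - d) ⁻¹' s = (fun k : ℤ => k + d) '' s := by
    ext k
    simp only [mem_preimage, mem_image]
    constructor
    · intro h
      exact ⟨k - d, h, by ring⟩
    · rintro ⟨j, hj, rfl⟩
      simpa using hj
  rw [Measure.map_apply hm hs, Measure.count_apply hs, Measure.count_apply (hm hs), hpre,
    (add_left_injective d).encard_image]

theorem measurePreserving_shiftMap (d : ℤ) :
    MeasurePreserving (shiftMap d) pairMeasure pairMeasure := by
  have h := (MeasurePreserving.id cubeMeasure).prod (measurePreserving_sub_count d)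
  have hfun : shiftMap d = Prod.map id (fun k : ℤ => k - d) := by
    funext p
    rfl
  rw [hfun]
  exact h

end Crest.Agent.Helper89.S0151
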